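import Mathlib

open Set

namespace Vale.Agent.P317

/-- A purely combinatorial lemma.  If every `f ∈ S₀` has an `R₁`-successor in `T₀` and every
`e ∈ T₀` has an `R₂`-successor in `S₀`, then there are nonempty `S ⊆ S₀`, `T ⊆ T₀` of equal size on
which both relations are `diagonal`. -/
lemma exists_diag {α : Type*} [DecidableEq α] (R₁ R₂ : α → α → Prop) :
    ∀ (n : ℕ) (S₀ T₀ : Finset α), S₀.card + T₀.card = n → S₀.Nonempty →
    (∀ f ∈ S₀, ∃ e ∈ T₀, R₁ f e) → (∀ e ∈ T₀, ∃ f ∈ S₀, R₂ e f) →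
    ∃ S T : Finset α, S ⊆ S₀ ∧ T ⊆ T₀ ∧ S.Nonempty ∧ T.card = S.card ∧
      (∀ f ∈ S, ∃ e ∈ T, R₁ f e ∧ ∀ f' ∈ S, R₁ f' e → f' = f) ∧
      (∀ f ∈ S, ∃ e ∈ T, R₂ e f ∧ ∀ f' ∈ S, R₂ e f' → f' = f) := by
  intro n
  induction n using Nat.strong_induction_on with
  | _ n ih =>
  intro S₀ T₀ hn hne h₁ h₂
  by_cases c1 : ∃ e ∈ T₀, ∀ f ∈ S₀, ∃ e' ∈ T₀.erase e, R₁ f e'
  · obtain ⟨e, he, hh⟩ := c1
    have hlt : S₀.card + (T₀.erase e).card < n := by
      rw [Finset.card_erase_of_mem he, ← hn]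
      have : 0 < T₀.card := Finset.card_pos.2 ⟨e, he⟩
      omega
    obtain ⟨S, T, hS, hT, rest⟩ := ih _ hlt S₀ (T₀.erase e) rfl hne hh
      (fun e' he' => h₂ e' (Finset.mem_of_mem_erase he'))
    exact ⟨S, T, hS, hT.trans (Finset.erase_subset _ _), rest⟩
  by_cases c2 : ∃ f ∈ S₀, (S₀.erase f).Nonempty ∧ ∀ e ∈ T₀, ∃ f' ∈ S₀.erase f, R₂ e f'
  · obtain ⟨f, hf, hne', hh⟩ := c2
    have hlt : (S₀.erase f).card + T₀.card < n := by
      rw [Finset.card_erase_of_mem hf, ← hn]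
      have : 0 < S₀.card := Finset.card_pos.2 ⟨f, hf⟩
      omega
    obtain ⟨S, T, hS, hT, rest⟩ := ih _ hlt (S₀.erase f) T₀ rfl hne'
      (fun f' hf' => h₁ f' (Finset.mem_of_mem_erase hf')) hh
    exact ⟨S, T, hS.trans (Finset.erase_subset _ _), hT, rest⟩
  push Not at c1 c2
  -- (A') every `e ∈ T₀` is the only successor of some `f ∈ S₀`
  have hA : ∀ e ∈ T₀, ∃ f ∈ S₀, R₁ f e ∧ ∀ e' ∈ T₀, R₁ f e' → e' = e := by
    intro e he
    obtain ⟨f, hf, hfe⟩ := c1 e he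
    obtain ⟨e₁, he₁, hR⟩ := h₁ f hf
    have huniq : ∀ e' ∈ T₀, R₁ f e' → e' = e := by
      intro e' he' hR'
      by_contra hne'
      exact hfe e' (Finset.mem_erase.2 ⟨hne', he'⟩) hR'
    exact ⟨f, hf, (huniq e₁ he₁ hR) ▸ hR, huniq⟩
  -- (B') every `f ∈ S₀` is the only successor of some `e ∈ T₀`
  have hB : ∀ f ∈ S₀, ∃ e ∈ T₀, R₂ e f ∧ ∀ f' ∈ S₀, R₂ e f' → f' = f := by
    intro f hf
    by_cases hne' : (S₀.erase f).Nonempty
    · obtain ⟨e, he, hef⟩ := c2 f hf hne'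
      obtain ⟨f₁, hf₁, hR⟩ := h₂ e he
      have huniq : ∀ f' ∈ S₀, R₂ e f' → f' = f := by
        intro f' hf' hR'
        by_contra hne''
        exact hef f' (Finset.mem_erase.2 ⟨hne'', hf'⟩) hR'
      exact ⟨e, he, (huniq f₁ hf₁ hR) ▸ hR, huniq⟩
    · rw [Finset.not_nonempty_iff_eq_empty] at hne'
      have hall : ∀ f' ∈ S₀, f' = f := by
        intro f' hf'
        by_contra hne''
        have : f' ∈ S₀.erase f := Finset.mem_erase.2 ⟨hne'', hf'⟩
        rw [hne'] at this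
        exact absurd this (Finset.notMem_empty _)
      obtain ⟨e, he, _⟩ := h₁ f hf
      obtain ⟨f₁, hf₁, hR⟩ := h₂ e he
      exact ⟨e, he, (hall f₁ hf₁) ▸ hR, fun f' hf' _ => hall f' hf'⟩
  choose! g hgS hgR hguniq using hA
  choose! h hhT hhR hhuniq using hB
  have hginj : Set.InjOn g T₀ := by
    intro e he e' he' hEq
    have := hguniq e' he' e he (hEq ▸ hgR e he)
    exact this
  have hhinj : Set.InjOn h S₀ := by
    intro f hf f' hf' hEq
    have := hhuniq f' hf' f hf (hEq ▸ hhR f hf)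
    exact this
  have hle1 : T₀.card ≤ S₀.card := Finset.card_le_card_of_injOn g hgS hginj
  have hle2 : S₀.card ≤ T₀.card := Finset.card_le_card_of_injOn h hhT hhinj
  have hcard : T₀.card = S₀.card := le_antisymm hle1 hle2
  have hgsurj : ∀ f ∈ S₀, ∃ e ∈ T₀, g e = f := by
    have himg : T₀.image g = S₀ := by
      apply Finset.eq_of_subset_of_card_le
      · intro x hx
        obtain ⟨e, he, rfl⟩ := Finset.mem_image.1 hx
        exact hgS e he
      · rw [Finset.card_image_of_injOn hginj, hcard]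
    intro f hf
    rw [← himg] at hf
    obtain ⟨e, he, rfl⟩ := Finset.mem_image.1 hf
    exact ⟨e, he, rfl⟩
  refine ⟨S₀, T₀, Finset.Subset.refl _, Finset.Subset.refl _, hne, hcard, ?_, ?_⟩
  · intro f hf
    obtain ⟨e, he, rfl⟩ := hgsurj f hf
    refine ⟨e, he, hgR e he, ?_⟩
    intro f' hf' hR'
    obtain ⟨e', he', rfl⟩ := hgsurj f' hf'
    have : e = e' := hguniq e' he' e he hR'
    rw [this]
  · intro f hf
    exact ⟨h f, hhT f hf, hhR f hf, hhuniq f hf⟩

variable {α : Type*}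

/-- Diagonal multiple exchange: if `S ⊆ B₀`, `T` is disjoint from `B₀`, `|T| = |S|`, and every
`f ∈ S` has a partner `e ∈ T` which can be exchanged with `f` but with no other element of `S`,
then `(B₀ \ S) ∪ T` is a base. -/
lemma diag_exchange [Finite α] {M : Matroid α} {B₀ S T : Set α} (hB₀ : M.IsBase B₀)
    (hS : S ⊆ B₀) (hT : Disjoint T B₀) (hTE : T ⊆ M.E) (hcard : T.ncard = S.ncard)
    (h : ∀ f ∈ S, ∃ e ∈ T, M.IsBase (insert e (B₀ \ {f})) ∧
      ∀ f' ∈ S, M.IsBase (insert e (B₀ \ {f'})) → f' = f) :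
    M.IsBase ((B₀ \ S) ∪ T) := by
  classical
  have hsubE : (B₀ \ S) ∪ T ⊆ M.E :=
    union_subset (sdiff_subset.trans hB₀.subset_ground) hTE
  -- every `f ∈ S` is in the closure of the new set
  have hcl : ∀ f ∈ S, f ∈ M.closure ((B₀ \ S) ∪ T) := by
    intro f hf
    obtain ⟨e, heT, hbase, huniq⟩ := h f hf
    have heB₀ : e ∉ B₀ := fun hh => (Set.disjoint_left.1 hT heT) hh
    have heE : e ∈ M.E := hTE heT
    have hecl : e ∈ M.closure B₀ := by rw [hB₀.closure_eq]; exact heE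
    have hC := hB₀.fundCircuit_isCircuit heE heB₀
    have hfe : f ≠ e := fun hh => heB₀ (hh ▸ hS hf)
    have hmem : ∀ x, x ∈ M.fundCircuit e B₀ ↔ M.Indep (insert e B₀ \ {x}) :=
      fun x => hB₀.indep.mem_fundCircuit_iff hecl heB₀
    have hfC : f ∈ M.fundCircuit e B₀ := by
      rw [hmem, ← insert_sdiff_singleton_comm hfe.symm]
      exact hbase.indep
    have hCsub : M.fundCircuit e B₀ \ {f} ⊆ (B₀ \ S) ∪ T := by
      rintro x ⟨hxC, hxf⟩
      rcases M.fundCircuit_subset_insert e B₀ hxC with rfl | hxB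
      · exact Or.inr heT
      · left
        refine ⟨hxB, fun hxS => hxf ?_⟩
        have hxe : x ≠ e := fun hh => heB₀ (hh ▸ hxB)
        apply huniq x hxS
        have hI : M.Indep (insert e (B₀ \ {x})) := by
          rw [insert_sdiff_singleton_comm hxe.symm]
          exact (hmem x).1 hxC
        exact hB₀.exchange_isBase_of_indep heB₀ hI
    exact M.closure_subset_closure hCsub (hC.mem_closure_sdiff_singleton_of_mem hfC)
  have hB₀sub : B₀ ⊆ M.closure ((B₀ \ S) ∪ T) := by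
    intro x hx
    by_cases hxS : x ∈ S
    · exact hcl x hxS
    · exact M.subset_closure _ hsubE (Or.inl ⟨hx, hxS⟩)
  have hsp : M.Spanning ((B₀ \ S) ∪ T) := by
    rw [Matroid.spanning_iff_closure_eq hsubE]
    apply subset_antisymm (M.closure_subset_ground _)
    have := M.closure_subset_closure_of_subset_closure hB₀sub
    rwa [hB₀.closure_eq] at this
  obtain ⟨B', hB', hB'sub⟩ := hsp.exists_isBase_subset
  have hc1 : ((B₀ \ S) ∪ T).ncard ≤ B₀.ncard := by
    calc ((B₀ \ S) ∪ T).ncard ≤ (B₀ \ S).ncard + T.ncard := Set.ncard_union_le _ _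
      _ = (B₀ \ S).ncard + S.ncard := by rw [hcard]
      _ = B₀.ncard := Set.ncard_sdiff_add_ncard_of_subset hS (Set.toFinite _)
  have hc2 : B'.ncard = B₀.ncard := hB'.ncard_eq_ncard_of_isBase hB₀
  have : B' = (B₀ \ S) ∪ T :=
    Set.eq_of_subset_of_ncard_le hB'sub (by rw [hc2]; exact hc1) (Set.toFinite _)
  exact this ▸ hB'

lemma ncard_eq_of_isBase [Finite α] {M : Matroid α} {r : ℕ} (hr : M.eRank = r) {B : Set α}
    (hB : M.IsBase B) : B.ncard = r := by
  have h := (Set.toFinite B).cast_ncard_eq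
  rw [hB.encard_eq_eRank, hr] at h
  exact_mod_cast h

/-- If a common base `B₀` is at exchange distance more than `k` from the base `B` of `M₁`, there is a
common base which is strictly closer to `B`. -/
lemma exists_closer [Finite α] {M₁ M₂ : Matroid α} {r k : ℕ} (hE : M₁.E = M₂.E)
    (hr₁ : M₁.eRank = r)
    (hyp : ∀ I, M₁.Indep I → I.ncard + k ≤ r → M₂.Indep I)
    {B₀ B : Set α} (h₁ : M₁.IsBase B₀) (h₂ : M₂.IsBase B₀) (hB : M₁.IsBase B)
    (hd : k < (B₀ \ B).ncard) :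
    ∃ B', M₁.IsBase B' ∧ M₂.IsBase B' ∧ (B' \ B).ncard < (B₀ \ B).ncard := by
  classical
  have := Fintype.ofFinite α
  set S₀ : Finset α := (B₀ \ B).toFinset with hS₀
  set T₀ : Finset α := (B \ B₀).toFinset with hT₀
  have hne : S₀.Nonempty := by
    rw [← Finset.card_pos, hS₀, ← Set.ncard_eq_toFinset_card']
    omega
  have ha : ∀ f ∈ S₀, ∃ e ∈ T₀, M₁.IsBase (insert e (B₀ \ {f})) := by
    intro f hf
    rw [hS₀, Set.mem_toFinset] at hf
    obtain ⟨e, he, hbase⟩ := h₁.exchange hB hf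
    exact ⟨e, by rw [hT₀, Set.mem_toFinset]; exact he, hbase⟩
  have hb : ∀ e ∈ T₀, ∃ f ∈ S₀, M₂.IsBase (insert e (B₀ \ {f})) := by
    intro e he
    rw [hT₀, Set.mem_toFinset] at he
    by_contra hcon
    push Not at hcon
    have heE : e ∈ M₂.E := hE ▸ hB.subset_ground he.1
    have hecl : e ∈ M₂.closure B₀ := by rw [h₂.closure_eq]; exact heE
    have hC := h₂.fundCircuit_isCircuit heE he.2
    have hCsub : M₂.fundCircuit e B₀ ⊆ insert e (B₀ ∩ B) := by
      intro x hxC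
      rcases M₂.fundCircuit_subset_insert e B₀ hxC with rfl | hxB
      · exact Or.inl rfl
      · right
        refine ⟨hxB, ?_⟩
        by_contra hxnB
        have hxe : x ≠ e := fun hh => he.2 (hh ▸ hxB)
        apply hcon x (by rw [hS₀, Set.mem_toFinset]; exact ⟨hxB, hxnB⟩)
        have hI : M₂.Indep (insert e (B₀ \ {x})) := by
          rw [insert_sdiff_singleton_comm hxe.symm]
          exact (h₂.indep.mem_fundCircuit_iff hecl he.2).1 hxC
        exact h₂.exchange_isBase_of_indep he.2 hI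
    have hCB : M₂.fundCircuit e B₀ ⊆ B :=
      hCsub.trans (insert_subset he.1 inter_subset_right)
    have hCind : M₁.Indep (M₂.fundCircuit e B₀) := hB.indep.subset hCB
    have hcard : (M₂.fundCircuit e B₀).ncard + k ≤ r := by
      have h1 : (M₂.fundCircuit e B₀).ncard ≤ (B₀ ∩ B).ncard + 1 :=
        (Set.ncard_le_ncard hCsub (Set.toFinite _)).trans (Set.ncard_insert_le _ _)
      have h2 : (B₀ ∩ B).ncard + (B₀ \ B).ncard = B₀.ncard :=
        Set.ncard_inter_add_ncard_sdiff_eq_ncard B₀ B (Set.toFinite _)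
      have h3 : B₀.ncard = r := ncard_eq_of_isBase hr₁ h₁
      omega
    exact hC.dep.not_indep (hyp _ hCind hcard)
  obtain ⟨S, T, hSS, hTT, hSne, hcard, hd₁, hd₂⟩ :=
    exists_diag (fun f e => M₁.IsBase (insert e (B₀ \ {f})))
      (fun e f => M₂.IsBase (insert e (B₀ \ {f}))) _ S₀ T₀ rfl hne ha hb
  have hSsub : (S : Set α) ⊆ B₀ \ B := by
    intro x hx
    have := hSS hx
    rwa [hS₀, Set.mem_toFinset] at this
  have hTsub : (T : Set α) ⊆ B \ B₀ := by
    intro x hx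
    have := hTT hx
    rwa [hT₀, Set.mem_toFinset] at this
  have hSB₀ : (S : Set α) ⊆ B₀ := hSsub.trans sdiff_subset
  have hTdisj : Disjoint (T : Set α) B₀ :=
    Set.disjoint_left.2 fun x hx => (hTsub hx).2
  have hTE₁ : (T : Set α) ⊆ M₁.E := (hTsub.trans sdiff_subset).trans hB.subset_ground
  have hcard' : (T : Set α).ncard = (S : Set α).ncard := by
    rw [Set.ncard_coe_finset, Set.ncard_coe_finset, hcard]
  have hb₁ : M₁.IsBase ((B₀ \ (S : Set α)) ∪ T) :=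
    diag_exchange h₁ hSB₀ hTdisj hTE₁ hcard' (fun f hf => by
      obtain ⟨e, he, h1, h2⟩ := hd₁ f hf
      exact ⟨e, he, h1, fun f' hf' => h2 f' hf'⟩)
  have hb₂ : M₂.IsBase ((B₀ \ (S : Set α)) ∪ T) :=
    diag_exchange h₂ hSB₀ hTdisj (hE ▸ hTE₁) hcard' (fun f hf => by
      obtain ⟨e, he, h1, h2⟩ := hd₂ f hf
      exact ⟨e, he, h1, fun f' hf' => h2 f' hf'⟩)
  refine ⟨_, hb₁, hb₂, ?_⟩
  have hEq : ((B₀ \ (S : Set α)) ∪ T) \ B = (B₀ \ B) \ S := by
    ext x
    constructor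
    · rintro ⟨hx | hx, hxB⟩
      · exact ⟨⟨hx.1, hxB⟩, hx.2⟩
      · exact (hxB (hTsub hx).1).elim
    · rintro ⟨⟨hx, hxB⟩, hxS⟩
      exact ⟨Or.inl ⟨hx, hxS⟩, hxB⟩
  rw [hEq]
  have h4 : ((B₀ \ B) \ (S : Set α)).ncard + (S : Set α).ncard = (B₀ \ B).ncard :=
    Set.ncard_sdiff_add_ncard_of_subset hSsub (Set.toFinite _)
  have h5 : 0 < (S : Set α).ncard := by
    rw [Set.ncard_coe_finset]; exact Finset.card_pos.2 hSne
  omega

/-- Every base of `M₁` is within `k` exchanges of a common base. -/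
lemma exists_near [Finite α] {M₁ M₂ : Matroid α} {r k : ℕ} (hE : M₁.E = M₂.E)
    (hr₁ : M₁.eRank = r)
    (hyp : ∀ I, M₁.Indep I → I.ncard + k ≤ r → M₂.Indep I)
    (hne : ∃ B₀, M₁.IsBase B₀ ∧ M₂.IsBase B₀) {B : Set α} (hB : M₁.IsBase B) :
    ∃ B', M₁.IsBase B' ∧ M₂.IsBase B' ∧ (B' \ B).ncard ≤ k := by
  classical
  -- choose a common base minimising the distance
  have hex : ∃ d, ∃ B', M₁.IsBase B' ∧ M₂.IsBase B' ∧ (B' \ B).ncard = d := by
    obtain ⟨B₀, h₁, h₂⟩ := hne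
    exact ⟨_, B₀, h₁, h₂, rfl⟩
  obtain ⟨B', h₁, h₂, hd⟩ := Nat.find_spec hex
  refine ⟨B', h₁, h₂, ?_⟩
  by_contra hlt
  push Not at hlt
  obtain ⟨B'', h₁', h₂', hlt'⟩ := exists_closer hE hr₁ hyp h₁ h₂ hB hlt
  exact Nat.find_min hex (hd ▸ hlt') ⟨B'', h₁', h₂', rfl⟩

end Vale.Agent.P317
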